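import Vale.Agent.Lib.P243.Rotate

/-!
# P243: Bang's half-area inequality for cylinders whose axes are parallel to one plane

Three-space is `Fin 3 → ℝ` with the dot product `⬝ᵥ`.  For an orthonormal pair `e`, `f` the
map `p ↦ (e ⬝ᵥ p, f ⬝ᵥ p)` is the orthogonal projection onto the plane spanned by `e` and
`f`, written in the orthonormal coordinates `(e, f)` of that plane; so for a set `B` of the
coordinate plane `ℝ × ℝ` the set of all `p` with `(e ⬝ᵥ p, f ⬝ᵥ p) ∈ B` is the cylinder whose
axis is the line orthogonal to `e` and `f` and whose base is `B` (in those coordinates), and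
the area of the base is `volume B`.

The theorem: let `K` be a compact convex set and let finitely many such cylinders cover `K`,
the `i`-th one given by the orthonormal pair `e i`, `f i` and the base `B i`.  Suppose a
nonzero vector `n` lies in each of the planes spanned by `e i` and `f i`; this says that
every axis is orthogonal to `n`, that is, all axes are parallel to the plane orthogonal to
`n`.  Then the sum of the areas `volume (B i)` is at least half the infimum, over all
orthonormal pairs `a`, `b`, of the area of the orthogonal projection of `K` onto their plane.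

There is no restriction on the number of cylinders or on the number of axis directions in
the plane, and no measurability of the bases is assumed (for a set that is not measurable,
`volume` is the outer measure).  The proof cuts `K` by planes orthogonal to `n`, applies
Bang's plank theorem (proved in `Lib/P243/Bang.lean` and `Lib/P243/Strips.lean`) in each
planar section, and integrates using the concavity of the widths of the sections.
-/

namespace Vale.Agent.Results.P243.CoplanarAxes

open MeasureTheory Set

theorem result {ι : Type} [Fintype ι] (K : Set (Fin 3 → ℝ)) (hK : Convex ℝ K)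
    (hKc : IsCompact K) (e f : ι → Fin 3 → ℝ)
    (hef : ∀ i, e i ⬝ᵥ e i = 1 ∧ f i ⬝ᵥ f i = 1 ∧ e i ⬝ᵥ f i = 0)
    (B : ι → Set (ℝ × ℝ)) (hcov : ∀ p ∈ K, ∃ i, (e i ⬝ᵥ p, f i ⬝ᵥ p) ∈ B i)
    (n : Fin 3 → ℝ) (hn : n ≠ 0) (hpl : ∀ i, ∃ s t : ℝ, n = s • e i + t • f i) :
    (1 : ENNReal) / 2 * (⨅ (a : Fin 3 → ℝ) (b : Fin 3 → ℝ)
        (_ : a ⬝ᵥ a = 1 ∧ b ⬝ᵥ b = 1 ∧ a ⬝ᵥ b = 0),
        volume ((fun p : Fin 3 → ℝ => (a ⬝ᵥ p, b ⬝ᵥ p)) '' K)) ≤ ∑ i, volume (B i) :=
  Vale.Agent.Lib.P243.coplanar_span hK hKc e f hef B hcov n hn hpl

end Vale.Agent.Results.P243.CoplanarAxes
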