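import Vale.Agent.Lib.P243.Refined

/-!
# P243: a refinement of the bound `1/3` valid for every finite cylinder covering

Three-space is `Fin 3 → ℝ` with the dot product `⬝ᵥ`.  For an orthonormal pair `e`, `f` the
map `p ↦ (e ⬝ᵥ p, f ⬝ᵥ p)` is the orthogonal projection onto the plane spanned by `e` and
`f`, written in the orthonormal coordinates `(e, f)` of that plane; so for a set `B` of the
coordinate plane `ℝ × ℝ` the set of all `p` with `(e ⬝ᵥ p, f ⬝ᵥ p) ∈ B` is the cylinder whose
axis is the line orthogonal to `e` and `f` and whose base is `B` (in those coordinates), and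
the area of the base is `volume B`.

Setting: `K` is a convex body.  The axis directions are indexed by a finite type `κ`; the
direction `k` comes with an orthonormal pair `e k`, `f k` spanning the plane orthogonal to
it.  The cylinders are indexed by a finite type `ι`; the cylinder `i` has the axis direction
`d i` and the base `B i`, an arbitrary set given in the coordinates `(e (d i), f (d i))`.
There is no condition on the directions, and any number of cylinders may share a direction.
The number `b k` is the total relative base area spent in the direction `k`: the sum of the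
areas of the bases `B i` with `d i = k`, divided by the area of the orthogonal projection of
`K` along the direction `k`, and capped at `1`.

The theorem: if the cylinders cover `K`, then
* the numbers `3 b k - 2 (b k)^{3/2}` add up to at least `1`;
* the directionwise relative area (the sum over `i` of the area of `B i` divided by the area
  of the projection of `K` along the axis of the cylinder `i`) is at least
  `1/3 + (2/3) ∑ (b k)^{3/2}`;
* the sum of the areas of the bases is at least `1/3 + (2/3) ∑ (b k)^{3/2}` times the
  infimum, over all orthonormal pairs `a`, `c`, of the area of the orthogonal projection of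
  `K` onto their plane.

Equality holds in the first two statements for the two cylinders covering a tetrahedron in
the classical example (`b = 1/4, 1/4`) and for a single cylinder (`b = 1`).
-/

namespace Vale.Agent.Results.P243.RefinedBound

open MeasureTheory Set

theorem result {ι κ : Type} [Fintype ι] [Fintype κ] [DecidableEq κ]
    (K : Set (Fin 3 → ℝ)) (hK : Convex ℝ K)
    (hKc : IsCompact K) (hKi : (interior K).Nonempty)
    (e f : κ → Fin 3 → ℝ) (hef : ∀ k, e k ⬝ᵥ e k = 1 ∧ f k ⬝ᵥ f k = 1 ∧ e k ⬝ᵥ f k = 0)
    (d : ι → κ) (B : ι → Set (ℝ × ℝ))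
    (hcov : ∀ p ∈ K, ∃ i, (e (d i) ⬝ᵥ p, f (d i) ⬝ᵥ p) ∈ B i)
    (b : κ → ℝ)
    (hb : ∀ k, b k = (min 1 ((∑ i ∈ Finset.univ.filter (fun i => d i = k), volume (B i)) /
      volume ((fun p : Fin 3 → ℝ => (e k ⬝ᵥ p, f k ⬝ᵥ p)) '' K))).toReal) :
    1 ≤ ∑ k, (3 * b k - 2 * b k * √(b k)) ∧
      ENNReal.ofReal (1 / 3 + 2 / 3 * ∑ k, b k * √(b k)) ≤
        ∑ i, volume (B i) /
          volume ((fun p : Fin 3 → ℝ => (e (d i) ⬝ᵥ p, f (d i) ⬝ᵥ p)) '' K) ∧
      ENNReal.ofReal (1 / 3 + 2 / 3 * ∑ k, b k * √(b k)) *
          (⨅ (a : Fin 3 → ℝ) (c : Fin 3 → ℝ) (_ : a ⬝ᵥ a = 1 ∧ c ⬝ᵥ c = 1 ∧ a ⬝ᵥ c = 0),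
            volume ((fun p : Fin 3 → ℝ => (a ⬝ᵥ p, c ⬝ᵥ p)) '' K)) ≤ ∑ i, volume (B i) :=
  Vale.Agent.Lib.P243.refined_pi hK hKc hKi e f hef d B hcov b hb

end Vale.Agent.Results.P243.RefinedBound
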