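import Vale.Agent.Lib.P243.Sym

/-!
# P243: centrally symmetric convex bodies, every finite cylinder covering

Three-space is `Fin 3 → ℝ` with the dot product `⬝ᵥ`.  For an orthonormal pair `e`, `f` the
map `p ↦ (e ⬝ᵥ p, f ⬝ᵥ p)` is the orthogonal projection onto the plane spanned by `e` and
`f`, written in the orthonormal coordinates `(e, f)` of that plane; so for a set `B` of the
coordinate plane `ℝ × ℝ` the set of all `p` with `(e ⬝ᵥ p, f ⬝ᵥ p) ∈ B` is the cylinder whose
axis is the line orthogonal to `e` and `f` and whose base is `B` (in those coordinates), and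
the area of the base is `volume B`.

Setting: `K` is a convex body which is centrally symmetric: it has a centre `o` such that
`2 o - p` lies in `K` for every `p` in `K`.  The cylinders are indexed by a finite type `ι`;
the cylinder `i` is given by an orthonormal pair `e i`, `f i` spanning the plane orthogonal to
its axis and by its base `B i`, an arbitrary set in the coordinates `(e i, f i)`.  There is no
condition on the number or on the directions of the cylinders.

The theorem: if the cylinders cover `K`, then
* the directionwise relative area (the sum over `i` of the area of `B i` divided by the area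
  of the orthogonal projection of `K` along the axis of the cylinder `i`) is at least `5/12`;
* the sum of the areas of the bases is at least `5/12` times the infimum, over all orthonormal
  pairs `a`, `c`, of the area of the orthogonal projection of `K` onto their plane.

The proof spreads mass over `K` with the density `1/2 + g`, `g` the gauge (Minkowski
functional) of `K - o`, and shows that a cylinder with base of relative area `β` carries at
most the fraction `12 β / 5` of that mass.
-/

namespace Vale.Agent.Results.P243.SymmetricBodies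

open MeasureTheory Set

theorem result {ι : Type} [Fintype ι] (K : Set (Fin 3 → ℝ)) (hK : Convex ℝ K)
    (hKc : IsCompact K) (hKi : (interior K).Nonempty) (o : Fin 3 → ℝ)
    (hsym : ∀ p ∈ K, (2 : ℝ) • o - p ∈ K)
    (e f : ι → Fin 3 → ℝ) (hef : ∀ i, e i ⬝ᵥ e i = 1 ∧ f i ⬝ᵥ f i = 1 ∧ e i ⬝ᵥ f i = 0)
    (B : ι → Set (ℝ × ℝ)) (hcov : ∀ p ∈ K, ∃ i, (e i ⬝ᵥ p, f i ⬝ᵥ p) ∈ B i) :
    ENNReal.ofReal (5 / 12) ≤ ∑ i, volume (B i) /
        volume ((fun p : Fin 3 → ℝ => (e i ⬝ᵥ p, f i ⬝ᵥ p)) '' K) ∧
      ENNReal.ofReal (5 / 12) *
          (⨅ (a : Fin 3 → ℝ) (c : Fin 3 → ℝ) (_ : a ⬝ᵥ a = 1 ∧ c ⬝ᵥ c = 1 ∧ a ⬝ᵥ c = 0),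
            volume ((fun p : Fin 3 → ℝ => (a ⬝ᵥ p, c ⬝ᵥ p)) '' K)) ≤ ∑ i, volume (B i) :=
  Vale.Agent.Lib.P243.sym_pi hK hKc hKi o hsym e f hef B hcov

end Vale.Agent.Results.P243.SymmetricBodies
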