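import Vale.Agent.Lib.P243.TetraChart

/-!
# P243: coverings of a tetrahedron by cylinders whose axes are parallel to its edges

Three-space is `Fin 3 → ℝ` with the dot product `⬝ᵥ`.  For an orthonormal pair `e`, `f` the
map `p ↦ (e ⬝ᵥ p, f ⬝ᵥ p)` is the orthogonal projection onto the plane spanned by `e` and
`f`, written in the orthonormal coordinates `(e, f)` of that plane; so for a set `B` of the
coordinate plane `ℝ × ℝ` the set of all `p` with `(e ⬝ᵥ p, f ⬝ᵥ p) ∈ B` is the cylinder whose
axis is the line orthogonal to `e` and `f` and whose base is `B` (in those coordinates), and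
the area of the base is `volume B`.

The theorem: let `T` be the tetrahedron with the affinely independent vertices `v 0`, `v 1`,
`v 2`, `v 3` (any tetrahedron, not only the regular one), and let finitely many such
cylinders cover `T`, the `i`-th one given by the orthonormal pair `e i`, `f i` and the base
`B i`.  If the axis of every cylinder is parallel to some edge of `T` (the edge may change
with the cylinder, so up to six axis directions occur), then

* the sum of the areas `volume (B i)`, each divided by the area of the orthogonal projection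
  of `T` onto the plane orthogonal to the `i`-th axis, is at least `1/2`;
* the sum of the areas `volume (B i)` is at least half the infimum, over all orthonormal
  pairs `a`, `b`, of the area of the orthogonal projection of `T` onto their plane.

No measurability of the bases is assumed (for a set that is not measurable, `volume` is the
outer measure).
-/

namespace Vale.Agent.Results.P243.TetrahedronEdges

open MeasureTheory Set

theorem result {ι : Type} [Fintype ι]
    (v : Fin 4 → Fin 3 → ℝ) (hv : AffineIndependent ℝ v)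
    (e f : ι → Fin 3 → ℝ)
    (hef : ∀ i, e i ⬝ᵥ e i = 1 ∧ f i ⬝ᵥ f i = 1 ∧ e i ⬝ᵥ f i = 0)
    (B : ι → Set (ℝ × ℝ))
    (hcov : ∀ p ∈ convexHull ℝ (range v), ∃ i, (e i ⬝ᵥ p, f i ⬝ᵥ p) ∈ B i)
    (hax : ∀ i, ∃ a b : Fin 4, a ≠ b ∧
      e i ⬝ᵥ (v a - v b) = 0 ∧ f i ⬝ᵥ (v a - v b) = 0) :
    (1 : ENNReal) / 2 ≤ ∑ i, volume (B i) /
        volume ((fun p : Fin 3 → ℝ => (e i ⬝ᵥ p, f i ⬝ᵥ p)) '' convexHull ℝ (range v)) ∧
      (1 : ENNReal) / 2 * (⨅ (a : Fin 3 → ℝ) (b : Fin 3 → ℝ)
          (_ : a ⬝ᵥ a = 1 ∧ b ⬝ᵥ b = 1 ∧ a ⬝ᵥ b = 0),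
          volume ((fun p : Fin 3 → ℝ => (a ⬝ᵥ p, b ⬝ᵥ p)) '' convexHull ℝ (range v))) ≤
        ∑ i, volume (B i) := by
  have h : (1 : ENNReal) / 2 ≤ ∑ i, volume (B i) /
      volume ((fun p : Fin 3 → ℝ => (e i ⬝ᵥ p, f i ⬝ᵥ p)) '' convexHull ℝ (range v)) :=
    Vale.Agent.Lib.P243.tetra_edges v hv
      (fun i => Vale.Agent.Lib.P243.dotPair (e i) (f i))
      (fun i => Vale.Agent.Lib.P243.dotPair_surjective (hef i))
      (fun i => by
        obtain ⟨a, b, hab, h1, h2⟩ := hax i
        exact ⟨a, b, hab, Prod.ext h1 h2⟩)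
      B hcov
  refine ⟨h, ?_⟩
  exact Vale.Agent.Lib.P243.bang_form Finset.univ (fun i => volume (B i))
    (fun i => volume ((fun p : Fin 3 → ℝ => (e i ⬝ᵥ p, f i ⬝ᵥ p)) '' convexHull ℝ (range v))) _
    (fun i _ => iInf_le_of_le (e i) (iInf_le_of_le (f i) (iInf_le _ (hef i)))) h

end Vale.Agent.Results.P243.TetrahedronEdges
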